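import Vale.Agent.P192.R2.H360.R.Defs

set_option linter.all false

namespace Vale.Agent.P192.R2.H652

open SimpleGraph Vale.Agent.P192 Vale.Agent.P192.H437 Vale.Agent.P192.H593
  Vale.Agent.P192.R2.H577 Vale.Agent.P192.R2.H360.R

universe u v

section geo

variable {X : Type u} {Γ : SimpleGraph X} {x y : X}

theorem dist_le_add (hc : Γ.Connected) (p : Γ.Walk x y) (s k : ℕ) (h : s + k ≤ p.length) :
    Γ.dist (p.getVert s) (p.getVert (s + k)) ≤ k := by
  induction k with
  | zero => simp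
  | succ k ih =>
    have h1 := ih (by omega)
    have h2 : Γ.Adj (p.getVert (s + k)) (p.getVert (s + k + 1)) :=
      p.adj_getVert_succ (by omega)
    have h3 : Γ.dist (p.getVert (s + k)) (p.getVert (s + k + 1)) ≤ 1 := (dist_eq_one_iff_adj.2 h2).le
    have h4 := hc.dist_triangle (u := p.getVert s) (v := p.getVert (s + k))
      (w := p.getVert (s + k + 1))
    rw [show s + (k + 1) = s + k + 1 from rfl]
    omega

theorem dist_geo (hc : Γ.Connected) (p : Γ.Walk x y) (hp : p.length = Γ.dist x y) (s t : ℕ)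
    (hst : s ≤ t) (ht : t ≤ p.length) : Γ.dist (p.getVert s) (p.getVert t) = t - s := by
  obtain ⟨k, rfl⟩ := Nat.exists_eq_add_of_le hst
  have h1 := dist_le_add hc p s k ht
  have h2 := dist_le_add hc p 0 s (by omega)
  have h3 := dist_le_add hc p (s + k) (p.length - (s + k)) (by omega)
  rw [Walk.getVert_zero, Nat.zero_add] at h2
  rw [Nat.add_sub_cancel' ht, Walk.getVert_length] at h3
  have h4 := hc.dist_triangle (u := x) (v := p.getVert s) (w := y)
  have h5 := hc.dist_triangle (u := p.getVert s) (v := p.getVert (s + k)) (w := y)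
  omega

end geo

section

variable {G : Type v} [Group G] {S : Set G} {X : Type u} [MulAction G X]

theorem mem_fb_of_adj {D : Set X} {a b : X} (h : (sch S X).Adj a b) (hD : ¬ (a ∈ D ↔ b ∈ D)) :
    a ∈ fb S D := by
  obtain ⟨-, s, hs, rfl⟩ := h
  refine ⟨s, hs, ?_⟩
  tauto

theorem cross {x y : X} (p : (sch S X).Walk x y) (D : Set X) (i k : ℕ) (h : i + k ≤ p.length)
    (hD : ¬ (p.getVert i ∈ D ↔ p.getVert (i + k) ∈ D)) :
    ∃ t, i ≤ t ∧ t < i + k ∧ p.getVert t ∈ fb S D := by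
  induction k with
  | zero => exact absurd Iff.rfl hD
  | succ k ih =>
    by_cases h1 : (p.getVert i ∈ D ↔ p.getVert (i + k) ∈ D)
    · have h2 : (sch S X).Adj (p.getVert (i + k)) (p.getVert (i + k + 1)) :=
        p.adj_getVert_succ (by omega)
      refine ⟨i + k, by omega, by omega, mem_fb_of_adj h2 ?_⟩
      rw [← h1]
      exact hD
    · obtain ⟨t, ht1, ht2, ht3⟩ := ih (by omega) h1
      exact ⟨t, ht1, by omega, ht3⟩

end

theorem r5a : R2.{u, v} → R5a.{u, v} := by
  intro hR2 G _ _ hG S hS K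
  obtain ⟨M2, hM2⟩ := hR2 G hG S hS K
  refine ⟨M2 + 1, ?_⟩
  intro X _ _ x y
  have : Nonempty X := ⟨x⟩
  have hc : (sch S X).Connected := sch_connected hS
  by_contra hcon
  push Not at hcon
  obtain ⟨p, hp⟩ := hc.exists_walk_length_eq_dist x y
  obtain ⟨N1, hdiv, hmul⟩ : ∃ N1 : ℕ, (sch S X).dist x y ≤ (M2 + 1) * (N1 + 1) ∧
      (M2 + 1) * N1 ≤ p.length := by
    refine ⟨(sch S X).dist x y / (M2 + 1), ?_, ?_⟩
    · have h2 := Nat.lt_mul_div_succ ((sch S X).dist x y) (by omega : 0 < M2 + 1)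
      exact h2.le
    · rw [hp]
      exact Nat.mul_div_le _ _
  have hseg : ∀ j : Fin (M2 + 1), (j : ℕ) * N1 + N1 ≤ p.length := by
    intro j
    have : ((j : ℕ) + 1) * N1 ≤ (M2 + 1) * N1 := Nat.mul_le_mul_right _ (by omega)
    rw [add_mul, one_mul] at this
    omega
  have hd : ∀ j : Fin (M2 + 1), (sch S X).dist (p.getVert ((j : ℕ) * N1))
      (p.getVert ((j : ℕ) * N1 + N1)) = N1 := by
    intro j
    rw [dist_geo hc p hp _ _ (by omega) (hseg j)]
    omega
  have hD : ∀ j : Fin (M2 + 1), ∃ D : Set X, (fb S D).encard ≤ K ∧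
      (∀ u ∈ fb S D, ∀ v ∈ fb S D, hop S K u v) ∧
      ¬ (p.getVert ((j : ℕ) * N1) ∈ D ↔ p.getVert ((j : ℕ) * N1 + N1) ∈ D) ∧
      ∀ v ∈ fb S D, ¬ hop S (2 * K) (p.getVert ((j : ℕ) * N1)) v ∧
        ¬ hop S (2 * K) (p.getVert ((j : ℕ) * N1 + N1)) v := by
    intro j
    obtain ⟨D, h1, h2, h3, h4⟩ := hcon (p.getVert ((j : ℕ) * N1))
      (p.getVert ((j : ℕ) * N1 + N1)) (by rw [hd j]; exact hdiv)
    exact ⟨D, h1, h2, by tauto, h4⟩
  choose D hD1 hD2 hD3 hD4 using hD
  have hT : ∀ j : Fin (M2 + 1), ∃ t, (j : ℕ) * N1 + 2 * K < t ∧ t + 2 * K < (j : ℕ) * N1 + N1 ∧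
      p.getVert t ∈ fb S (D j) := by
    intro j
    obtain ⟨t, ht1, ht2, ht3⟩ := cross p (D j) _ _ (hseg j) (hD3 j)
    obtain ⟨h5, h6⟩ := hD4 j _ ht3
    have hsj := hseg j
    rw [hop_iff hc, dist_geo hc p hp _ _ ht1 (by omega)] at h5
    rw [hop_iff hc, SimpleGraph.dist_comm, dist_geo hc p hp _ _ ht2.le hsj] at h6
    exact ⟨t, by omega, by omega, ht3⟩
  choose t ht1 ht2 ht3 using hT
  have key := hM2 X x y (M2 + 1) D ?_ hD1 ?_
  · omega
  · intro j
    by_contra hno
    have hxy : x ∈ D j ↔ y ∈ D j := by tauto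
    have hsj := hseg j
    by_cases hxa : (x ∈ D j ↔ p.getVert ((j : ℕ) * N1) ∈ D j)
    · have hby : ¬ (p.getVert ((j : ℕ) * N1 + N1) ∈ D j ↔ y ∈ D j) := by
        have := hD3 j
        tauto
      obtain ⟨s, hs1, hs2, hs3⟩ := cross p (D j) ((j : ℕ) * N1 + N1)
        (p.length - ((j : ℕ) * N1 + N1)) (by omega) (by
          rw [Nat.add_sub_cancel' hsj, Walk.getVert_length]
          exact hby)
      have h7 := (hop_iff hc).1 (hD2 j _ (ht3 j) _ hs3)
      have h8 := ht2 j
      rw [dist_geo hc p hp _ _ (by omega) (by omega)] at h7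
      omega
    · obtain ⟨s, hs1, hs2, hs3⟩ := cross p (D j) 0 ((j : ℕ) * N1) (by omega) (by
          rw [Nat.zero_add, Walk.getVert_zero]
          exact hxa)
      have h7 := (hop_iff hc).1 (hD2 j _ hs3 _ (ht3 j))
      have h8 := ht1 j
      have h9 := ht2 j
      rw [dist_geo hc p hp _ _ (by omega) (by omega)] at h7
      omega
  · have hlt : ∀ i j : Fin (M2 + 1), i < j → Disjoint (fb S (D i)) (fb S (D j)) := by
      intro i j hij
      rw [Set.disjoint_left]
      intro z hzi hzj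
      have h1 := (hop_iff hc).1 (hD2 i _ (ht3 i) _ hzi)
      have h2 := (hop_iff hc).1 (hD2 j _ hzj _ (ht3 j))
      have h3 := hc.dist_triangle (u := p.getVert (t i)) (v := z) (w := p.getVert (t j))
      have h4 : ((i : ℕ) + 1) * N1 ≤ (j : ℕ) * N1 := Nat.mul_le_mul_right _ (by
        have : (i : ℕ) < j := hij
        omega)
      rw [add_mul, one_mul] at h4
      have h5 := ht2 i
      have h6 := ht1 j
      have h7 := ht2 j
      have h8 := hseg j
      rw [dist_geo hc p hp _ _ (by omega) (by omega)] at h3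
      omega
    intro i j hij
    rcases lt_or_gt_of_ne hij with h | h
    · exact hlt i j h
    · exact (hlt j i h).symm

end Vale.Agent.P192.R2.H652
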